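import Vale.Agent.P198.Base

/-! # P198 block T: the van Kampen obstruction for K33

`WdT γ w`: the path `γ` has a continuous logarithm whose total change is `w`.  A zero-free map on the
square has a logarithm, which gives one linear relation for each pair of independent edges; half the
sum of the 18 relations is exponentiated. -/

namespace Vale.Agent.P198
open Set Metric Filter Topology MeasureTheory

/-- The total change of a continuous logarithm. -/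
def WdT (γ : unitInterval → ℂ) (w : ℂ) : Prop :=
  ∃ L : unitInterval → ℂ, Continuous L ∧ (∀ t, Complex.exp (L t) = γ t) ∧ L 1 - L 0 = w

theorem WdT.uniq {γ : unitInterval → ℂ} {w w' : ℂ} (h : WdT γ w) (h' : WdT γ w') : w = w' := by
  obtain ⟨L, hL, e, rfl⟩ := h
  obtain ⟨L', hL', e', rfl⟩ := h'
  have key : ∀ t, Complex.exp (L t - L' t) = 1 := fun t => by
    rw [Complex.exp_sub, e t, ← e' t, div_self (Complex.exp_ne_zero _)]
  have h1 : L 1 - L' 1 = L 0 - L' 0 :=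
    Complex.isCoveringMap_exp.const_of_comp (g := fun t => L t - L' t) (hL.sub hL')
      (fun a a' => Subtype.ext ((key a).trans (key a').symm)) 1 0
  linear_combination h1

theorem WdT.neg {γ γ' : unitInterval → ℂ} {w : ℂ} (h : WdT γ w) (e : ∀ t, γ' t = -γ t) :
    WdT γ' w := by
  obtain ⟨L, hL, e', rfl⟩ := h
  exact ⟨fun t => L t + Real.pi * Complex.I, hL.add continuous_const,
    fun t => by rw [Complex.exp_add_pi_mul_I, e, e'], add_sub_add_right_eq_sub _ _ _⟩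

theorem WdT.exp {γ : unitInterval → ℂ} {w : ℂ} (h : WdT γ w) :
    Complex.exp w = γ 1 / γ 0 ∧ γ 0 ≠ 0 := by
  obtain ⟨L, -, e, rfl⟩ := h
  exact ⟨by rw [Complex.exp_sub, e, e], e 0 ▸ Complex.exp_ne_zero _⟩

theorem sq_T {f g : C(unitInterval, ℂ)} (h : ∀ s t, f s ≠ g t) : ∃ w₁ w₂ w₃ w₄ : ℂ,
    WdT (fun s => g 0 - f s) w₁ ∧ WdT (fun t => f 1 - g t) w₂ ∧ WdT (fun t => f 0 - g t) w₃ ∧
      WdT (fun s => g 1 - f s) w₄ ∧ w₁ + w₂ = w₃ + w₄ := by
  have : ContractibleSpace unitInterval :=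
    (convex_Icc (0 : ℝ) 1).contractibleSpace ⟨0, le_rfl, zero_le_one⟩
  have : LocallyPathConnectedSpace unitInterval := (convex_Icc (0 : ℝ) 1).locallyPathConnectedSpace
  obtain ⟨L, ⟨-, hL⟩, -⟩ := Complex.isCoveringMap_exp.existsUnique_continuousMap_lifts
    (A := unitInterval × unitInterval)
    ⟨fun z => ⟨f z.1 - g z.2, sub_ne_zero.2 (h _ _)⟩, by fun_prop⟩ (0, 0) (Complex.log (f 0 - g 0))
    (Subtype.ext (Complex.exp_log (sub_ne_zero.2 (h _ _))))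
  have e : ∀ s t, Complex.exp (L (s, t)) = f s - g t := fun s t =>
    congrArg Subtype.val (congrFun hL (s, t))
  have h1 : ∀ t, WdT (fun s => g t - f s) (L (1, t) - L (0, t)) := fun t =>
    WdT.neg ⟨fun s => L (s, t), by fun_prop, fun s => e s t, rfl⟩ fun s => (neg_sub _ _).symm
  have h2 : ∀ s, WdT (fun t => f s - g t) (L (s, 1) - L (s, 0)) := fun s =>
    ⟨fun t => L (s, t), by fun_prop, fun t => e s t, rfl⟩
  exact ⟨_, _, _, _, h1 0, h2 1, h2 0, h1 1, by ring⟩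

theorem alg_T {a : Fin 3 → ℂ} {b x y : ℂ} {P : Fin 3 → Fin 3 → ℂ} {q q' r r' : ℂ}
    (hP : ∀ i i', i ≠ i' → Complex.exp (P i i') = (a i - b) / (a i - a i') ∧ a i - a i' ≠ 0)
    (hq : Complex.exp q = x / (b - a 2) ∧ b - a 2 ≠ 0) (hq' : Complex.exp q' = y / (b - a 2))
    (hr : Complex.exp r = x / (b - a 0) ∧ b - a 0 ≠ 0) (hr' : Complex.exp r' = y / (b - a 0)) :
    Complex.exp (P 1 0 + P 2 0 + P 2 1 + q + q') = -Complex.exp (P 0 1 + P 0 2 + P 1 2 + r + r') := by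
  obtain ⟨e1, n1⟩ := hP 1 0 (by decide)
  obtain ⟨e2, n2⟩ := hP 2 0 (by decide)
  obtain ⟨e3, n3⟩ := hP 2 1 (by decide)
  obtain ⟨e4, n4⟩ := hP 0 1 (by decide)
  obtain ⟨e5, n5⟩ := hP 0 2 (by decide)
  obtain ⟨e6, n6⟩ := hP 1 2 (by decide)
  have n7 := hq.2
  have n8 := hr.2
  simp only [Complex.exp_add, e1, e2, e3, e4, e5, e6, hq.1, hq', hr.1, hr']
  field_simp
  ring

/-- In every continuous drawing of `K₃,₃` in the plane two independent edges meet. -/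
theorem k33 (e : Fin 3 → Fin 3 → C(unitInterval, ℂ)) (h0 : ∀ i j j', e i j 0 = e i j' 0)
    (h1 : ∀ i i' j, e i j 1 = e i' j 1) :
    ∃ i j i' j', i ≠ i' ∧ j ≠ j' ∧ ∃ s t, e i j s = e i' j' t := by
  by_contra hn
  have hsq : ∀ i j i' j', i ≠ i' → j ≠ j' → ∃ w₁ w₂ w₃ w₄ : ℂ,
      WdT (fun s => e i' 0 0 - e i j s) w₁ ∧ WdT (fun t => e 0 j 1 - e i' j' t) w₂ ∧
        WdT (fun t => e i 0 0 - e i' j' t) w₃ ∧ WdT (fun s => e 0 j' 1 - e i j s) w₄ ∧
          w₁ + w₂ = w₃ + w₄ := fun i j i' j' hi hj => by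
    rw [h0 i' 0 j', h1 0 i j, h0 i 0 j, h1 0 i' j']
    exact sq_T fun s t h => hn ⟨i, j, i', j', hi, hj, s, t, h⟩
  have hs : ∀ j : Fin 3, j + 1 ≠ j := by decide
  have hP : ∀ i i' j', ∃ w, i ≠ i' → WdT (fun t => e i 0 0 - e i' j' t) w := fun i i' j' => by
    by_cases hi : i = i'
    · exact ⟨0, fun h => absurd hi h⟩
    · obtain ⟨_, _, w, _, -, -, h, -⟩ := hsq i (j' + 1) i' j' hi (hs j')
      exact ⟨w, fun _ => h⟩
  have hQ : ∀ j i' j', ∃ w, j ≠ j' → WdT (fun t => e 0 j 1 - e i' j' t) w := fun j i' j' => by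
    by_cases hj : j = j'
    · exact ⟨0, fun h => absurd hj h⟩
    · obtain ⟨_, w, _, _, -, h, -⟩ := hsq (i' + 1) j i' j' (hs i') hj
      exact ⟨w, fun _ => h⟩
  choose P hP using hP
  choose Q hQ using hQ
  have R : ∀ i i', i ≠ i' → ∀ j j', j ≠ j' → P i' i j + Q j i' j' = P i i' j' + Q j' i j := by
    intro i i' hi j j' hj
    obtain ⟨w₁, w₂, w₃, w₄, a1, a2, a3, a4, h⟩ := hsq i j i' j' hi hj
    rwa [a1.uniq (hP i' i j hi.symm), a2.uniq (hQ j i' j' hj), a3.uniq (hP i i' j' hi),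
      a4.uniq (hQ j' i j hj.symm)] at h
  have eP : ∀ j i i', i ≠ i' → Complex.exp (P i i' j) =
      (e i 0 0 - e 0 j 1) / (e i 0 0 - e i' 0 0) ∧ e i 0 0 - e i' 0 0 ≠ 0 := fun j i i' hi => by
    simpa only [h0 i' j 0, h1 i' 0 j] using (hP i i' j hi).exp
  have eQ : ∀ j i j', j ≠ j' → Complex.exp (Q j i j') =
      (e 0 j 1 - e 0 j' 1) / (e 0 j 1 - e i 0 0) ∧ e 0 j 1 - e i 0 0 ≠ 0 := fun j i j' hj => by
    simpa only [h0 i j' 0, h1 i 0 j'] using (hQ j i j' hj).exp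
  have T : ∀ j j' j'', j ≠ j' → j ≠ j'' →
      Complex.exp (P 1 0 j + P 2 0 j + P 2 1 j + Q j 2 j' + Q j 2 j'') =
        -Complex.exp (P 0 1 j + P 0 2 j + P 1 2 j + Q j 0 j' + Q j 0 j'') := fun j j' j'' h h' =>
    alg_T (a := fun i => e i 0 0) (P := fun i i' => P i i' j) (eP j) (eQ j 2 j' h)
      (eQ j 2 j'' h').1 (eQ j 0 j' h) (eQ j 0 j'' h').1
  have S : ∀ i i', i ≠ i' → 2 * (P i' i 0 + P i' i 1 + P i' i 2) +
      (Q 0 i' 1 + Q 0 i' 2 + Q 1 i' 0 + Q 1 i' 2 + Q 2 i' 0 + Q 2 i' 1) =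
      2 * (P i i' 0 + P i i' 1 + P i i' 2) +
      (Q 0 i 1 + Q 0 i 2 + Q 1 i 0 + Q 1 i 2 + Q 2 i 0 + Q 2 i 1) := fun i i' hi => by
    linear_combination R i i' hi 0 1 (by decide) + R i i' hi 0 2 (by decide) +
      R i i' hi 1 0 (by decide) + R i i' hi 1 2 (by decide) + R i i' hi 2 0 (by decide) +
      R i i' hi 2 1 (by decide)
  have E : (P 1 0 0 + P 2 0 0 + P 2 1 0 + Q 0 2 1 + Q 0 2 2) +
      (P 1 0 1 + P 2 0 1 + P 2 1 1 + Q 1 2 0 + Q 1 2 2) +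
      (P 1 0 2 + P 2 0 2 + P 2 1 2 + Q 2 2 0 + Q 2 2 1) =
      (P 0 1 0 + P 0 2 0 + P 1 2 0 + Q 0 0 1 + Q 0 0 2) +
      (P 0 1 1 + P 0 2 1 + P 1 2 1 + Q 1 0 0 + Q 1 0 2) +
      (P 0 1 2 + P 0 2 2 + P 1 2 2 + Q 2 0 0 + Q 2 0 1) := by
    linear_combination (S 0 1 (by decide) + S 0 2 (by decide) + S 1 2 (by decide)) / 2
  have F := congrArg Complex.exp E
  rw [Complex.exp_add, Complex.exp_add, T 0 1 2 (by decide) (by decide),
    T 1 0 2 (by decide) (by decide), T 2 0 1 (by decide) (by decide), neg_mul_neg, mul_neg,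
    ← Complex.exp_add, ← Complex.exp_add] at F
  exact Complex.exp_ne_zero _ (self_eq_neg.1 F.symm)

end Vale.Agent.P198
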